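import Vale.Agent.P097.H402.Rat.Defs

/-! # P097 / RAT-A: the chord equation -/

set_option linter.all false

open Complex Metric Filter Topology Set
open scoped ComplexConjugate

namespace Vale.Agent.P097.H43

open Vale.Agent.P097.TA Vale.Agent.P097.H202 Vale.Agent.P097.H402.Rat

theorem seg_mem {κ : ℝ} {φ x : ℂ} (h1 : φ ∈ Str κ) (h2 : φ + x ∈ Str κ) {s : ℝ}
    (hs : s ∈ Icc (0 : ℝ) 1) : φ + s * x ∈ Str κ := by
  have h := (convex_Str κ) h1 h2 (sub_nonneg.2 hs.2) hs.1 (by ring : 1 - s + s = 1)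
  convert h using 1
  simp only [Complex.real_smul, ofReal_sub, ofReal_one]
  ring

theorem chord_of_KK {H : ℂ → ℂ} {κ : ℝ} (dH : DifferentiableOn ℂ H (Str κ)) {φ x y : ℂ}
    (h1 : φ ∈ Str κ) (h2 : φ + x ∈ Str κ) (hx : x ≠ 0)
    (h : H φ * Complex.cos y + deriv H φ * Complex.sin y =
      H (φ + x) * Complex.cos (y - x) + deriv H (φ + x) * Complex.sin (y - x)) :
    Chord (fun z => H z + deriv (deriv H) z) φ x y := by
  have hop := isOpen_Str κ
  have dH1 : DifferentiableOn ℂ (deriv H) (Str κ) := dH.deriv hop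
  have dH2 : DifferentiableOn ℂ (deriv (deriv H)) (Str κ) := dH1.deriv hop
  set K : ℝ → ℂ := fun s => H (φ + s * x) * Complex.cos (y - s * x) +
    deriv H (φ + s * x) * Complex.sin (y - s * x) with hK
  set K' : ℝ → ℂ := fun s => x * ((H (φ + s * x) + deriv (deriv H) (φ + s * x)) *
    Complex.sin (y - s * x)) with hK'
  have hder : ∀ s ∈ uIcc (0 : ℝ) 1, HasDerivAt K (K' s) s := by
    intro s hs
    rw [uIcc_of_le zero_le_one] at hs
    have hm := seg_mem h1 h2 hs
    have e0 : HasDerivAt (fun s : ℝ => φ + s * x) x s := by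
      have : HasDerivAt (fun s : ℝ => (s : ℂ) * x) (1 * x) s :=
        (Complex.ofRealCLM.hasDerivAt (x := s)).mul_const x
      simpa using this.const_add φ
    have e1 : HasDerivAt (fun s : ℝ => y - s * x) (-x) s := by
      have : HasDerivAt (fun s : ℝ => (s : ℂ) * x) (1 * x) s :=
        (Complex.ofRealCLM.hasDerivAt (x := s)).mul_const x
      simpa using this.const_sub y
    have a1 : HasDerivAt (fun s : ℝ => H (φ + s * x)) (deriv H (φ + s * x) * x) s :=
      ((dH.differentiableAt (hop.mem_nhds hm)).hasDerivAt).comp s e0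
    have a2 : HasDerivAt (fun s : ℝ => deriv H (φ + s * x))
        (deriv (deriv H) (φ + s * x) * x) s := by
      have h0 : HasDerivAt (deriv H) (deriv (deriv H) (φ + s * x)) (φ + s * x) :=
        (dH1.differentiableAt (hop.mem_nhds hm)).hasDerivAt
      exact h0.comp s e0
    have a3 : HasDerivAt (fun s : ℝ => Complex.cos (y - s * x))
        (-Complex.sin (y - s * x) * (-x)) s := (Complex.hasDerivAt_cos _).comp s e1
    have a4 : HasDerivAt (fun s : ℝ => Complex.sin (y - s * x))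
        (Complex.cos (y - s * x) * (-x)) s := (Complex.hasDerivAt_sin _).comp s e1
    refine ((a1.mul a3).add (a2.mul a4)).congr_deriv ?_
    rw [hK']
    ring
  have hcont : ContinuousOn K' (uIcc (0 : ℝ) 1) := by
    rw [uIcc_of_le zero_le_one]
    have c0 : ContinuousOn (fun s : ℝ => φ + s * x) (Icc (0 : ℝ) 1) := by fun_prop
    have c1 : ContinuousOn (fun s : ℝ => H (φ + s * x)) (Icc (0 : ℝ) 1) :=
      dH.continuousOn.comp c0 fun s hs => seg_mem h1 h2 hs
    have c2 : ContinuousOn (fun s : ℝ => deriv (deriv H) (φ + s * x)) (Icc (0 : ℝ) 1) :=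
      dH2.continuousOn.comp c0 fun s hs => seg_mem h1 h2 hs
    have c3 : ContinuousOn (fun s : ℝ => Complex.sin (y - s * x)) (Icc (0 : ℝ) 1) := by fun_prop
    exact continuousOn_const.mul ((c1.add c2).mul c3)
  have hI := intervalIntegral.integral_eq_sub_of_hasDerivAt hder hcont.intervalIntegrable
  have e2 : K 1 - K 0 = 0 := by
    simp only [hK, ofReal_one, one_mul, ofReal_zero, zero_mul, add_zero, sub_zero]
    rw [h]
    ring
  rw [e2, hK', intervalIntegral.integral_const_mul] at hI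
  have h3 := (mul_eq_zero.1 hI).resolve_left hx
  unfold Chord
  have e3 : (fun s : ℝ => (H (φ + s * x) + deriv (deriv H) (φ + s * x)) *
      Complex.sin (s * x - y)) = fun s : ℝ => -((H (φ + s * x) + deriv (deriv H) (φ + s * x)) *
      Complex.sin (y - s * x)) := by
    funext s
    rw [show (s : ℂ) * x - y = -(y - s * x) by ring, Complex.sin_neg]
    ring
  rw [e3, intervalIntegral.integral_neg, h3, neg_zero]

theorem chord_unique {R : ℂ → ℂ} {κ : ℝ} (hκ : 0 < κ) (dR : DifferentiableOn ℂ R (Str κ))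
    (Rp : ∀ z ∈ Str κ, R (z + 2 * Real.pi) = R z) (Rpos : ∀ x : ℝ, ∃ c : ℝ, 0 < c ∧ R x = c) :
    ∃ δ > 0, ∀ φ x₁ x₂ y : ℂ, |φ.im| < δ → ‖x₁‖ < δ → ‖x₂‖ < δ → ‖y‖ < δ → Chord R φ x₁ y →
      Chord R φ x₂ y → x₁ = x₂ := by
  have hop := isOpen_Str κ
  have dR1 : DifferentiableOn ℂ (deriv R) (Str κ) := dR.deriv hop
  have hπ : (0 : ℝ) < 2 * Real.pi := by positivity
  have Rp' : ∀ z ∈ Str κ, R (z + ((2 * Real.pi : ℝ) : ℂ)) = R z := by
    intro z hz
    push_cast
    exact Rp z hz
  have Rp1 : ∀ z ∈ Str κ, deriv R (z + ((2 * Real.pi : ℝ) : ℂ)) = deriv R z := by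
    intro z hz
    rw [← deriv_comp_add_const]
    refine Filter.EventuallyEq.deriv_eq ?_
    filter_upwards [hop.mem_nhds hz] with w hw
    exact Rp' w hw
  obtain ⟨M, hM0, hM⟩ := bdd_strip (β := κ) (β' := κ / 2) hπ (by linarith) dR.continuousOn Rp'
  obtain ⟨M₁, hM10, hM1⟩ := bdd_strip (β := κ) (β' := κ / 2) hπ (by linarith)
    dR1.continuousOn Rp1
  -- lower bound on the real axis
  obtain ⟨c₀, hc₀, hlow⟩ : ∃ c₀ > 0, ∀ x : ℝ, c₀ ≤ (R x).re := by
    have hc : ContinuousOn (fun x : ℝ => (R x).re) (Icc (0 : ℝ) (2 * Real.pi)) :=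
      Complex.continuous_re.comp_continuousOn (dR.continuousOn.comp
        Complex.continuous_ofReal.continuousOn fun x _ => real_mem_Str hκ x)
    obtain ⟨x₀, hx₀, hmin⟩ := isCompact_Icc.exists_isMinOn (nonempty_Icc.2 hπ.le) hc
    obtain ⟨c, hc1, hc2⟩ := Rpos x₀
    refine ⟨c, hc1, fun x => ?_⟩
    have hper : Function.Periodic (fun x : ℝ => (R x).re) (2 * Real.pi) := by
      intro x
      have := Rp' x (real_mem_Str hκ x)
      simp only
      rw [← this]
      push_cast
      rfl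
    obtain ⟨y, hy, hxy⟩ := hper.exists_mem_Ico₀ hπ x
    have h1 := hmin (Ico_subset_Icc_self hy)
    simp only [mem_ofPred_eq, hc2, ofReal_re] at h1
    rw [show (R x).re = (R y).re from hxy]
    exact h1
  -- small parameters
  obtain ⟨δ₁, hδ₁, htrig⟩ : ∃ δ₁ > 0, ∀ z : ℂ, ‖z‖ < δ₁ →
      M₁ * ‖Complex.sin z‖ ≤ c₀ / 8 ∧ M * ‖Complex.cos z - 1‖ ≤ c₀ / 8 := by
    have t1 : Tendsto (fun z : ℂ => M₁ * ‖Complex.sin z‖) (𝓝 0) (𝓝 0) := by
      have : Continuous fun z : ℂ => M₁ * ‖Complex.sin z‖ := by fun_prop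
      simpa using this.tendsto 0
    have t2 : Tendsto (fun z : ℂ => M * ‖Complex.cos z - 1‖) (𝓝 0) (𝓝 0) := by
      have : Continuous fun z : ℂ => M * ‖Complex.cos z - 1‖ := by fun_prop
      simpa using this.tendsto 0
    have h8 : (0 : ℝ) < c₀ / 8 := by positivity
    obtain ⟨δ₁, h1, h2⟩ := Metric.eventually_nhds_iff_ball.1
      ((t1.eventually (gt_mem_nhds h8)).and (t2.eventually (gt_mem_nhds h8)))
    exact ⟨δ₁, h1, fun z hz => ⟨(h2 z (by simpa using hz)).1.le, (h2 z (by simpa using hz)).2.le⟩⟩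
  set δ : ℝ := min (κ / 4) (min (δ₁ / 2) (c₀ / (16 * (M₁ + 1)))) with hδ
  have hδ0 : 0 < δ := by positivity
  have hδκ : δ ≤ κ / 4 := min_le_left _ _
  have hδ1 : δ ≤ δ₁ / 2 := (min_le_right _ _).trans (min_le_left _ _)
  have hδ2 : δ ≤ c₀ / (16 * (M₁ + 1)) := (min_le_right _ _).trans (min_le_right _ _)
  have hδ3 : M₁ * (2 * δ) ≤ c₀ / 8 := by
    have h1 : δ * (16 * (M₁ + 1)) ≤ c₀ := by rwa [le_div_iff₀ (by positivity)] at hδ2
    nlinarith
  refine ⟨δ, hδ0, fun φ x₁ x₂ y hφ hx₁ hx₂ hy hc1 hc2 => ?_⟩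
  -- the derivative of `q u = R (φ + u) sin (u - y)`
  set q : ℂ → ℂ := fun u => R (φ + u) * Complex.sin (u - y) with hq
  have him : ∀ u : ℂ, ‖u‖ < δ → |(φ + u).im| ≤ 2 * δ := by
    intro u hu
    rw [add_im]
    have := Complex.abs_im_le_norm u
    have := abs_add_le φ.im u.im
    linarith
  have hmem : ∀ u : ℂ, ‖u‖ < δ → φ + u ∈ Str κ := by
    intro u hu
    have := him u hu
    rw [mem_Str]
    linarith
  have hqd : ∀ u : ℂ, ‖u‖ < δ → HasDerivAt q (deriv R (φ + u) * Complex.sin (u - y) +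
      R (φ + u) * Complex.cos (u - y)) u := by
    intro u hu
    have a1 : HasDerivAt (fun u => R (φ + u)) (deriv R (φ + u)) u := by
      have := ((dR.differentiableAt (hop.mem_nhds (hmem u hu))).hasDerivAt)
      exact this.comp_const_add φ u
    have a2 : HasDerivAt (fun u => Complex.sin (u - y)) (Complex.cos (u - y)) u :=
      (Complex.hasDerivAt_sin (u - y)).comp_sub_const u y
    exact a1.mul a2
  have hre : ∀ u : ℂ, ‖u‖ < δ → c₀ / 2 ≤ (deriv R (φ + u) * Complex.sin (u - y) +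
      R (φ + u) * Complex.cos (u - y)).re := by
    intro u hu
    have h1 := him u hu
    have h2 : ‖u - y‖ < δ₁ := by
      have := norm_sub_le u y
      linarith
    obtain ⟨h3, h4⟩ := htrig _ h2
    have h5 : ‖deriv R (φ + u) * Complex.sin (u - y)‖ ≤ c₀ / 8 := by
      rw [norm_mul]
      refine le_trans (mul_le_mul_of_nonneg_right (hM1 _ (by linarith)) (norm_nonneg _)) h3
    have h6 : ‖R (φ + u) * (Complex.cos (u - y) - 1)‖ ≤ c₀ / 8 := by
      rw [norm_mul]
      refine le_trans (mul_le_mul_of_nonneg_right (hM _ (by linarith)) (norm_nonneg _)) h4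
    have h7 : ‖R (φ + u) - R ((φ + u).re : ℂ)‖ ≤ c₀ / 8 := by
      have hcs : Convex ℝ {z : ℂ | |z.im| ≤ κ / 2} := by
        have : {z : ℂ | |z.im| ≤ κ / 2} = Complex.im ⁻¹' Icc (-(κ / 2)) (κ / 2) := by
          ext z; simp [abs_le]
        rw [this]
        exact (convex_Icc _ _).is_linear_preimage Complex.imLm.isLinear
      have h8 := hcs.norm_image_sub_le_of_norm_deriv_le (f := R) (C := M₁)
        (fun z hz => dR.differentiableAt (hop.mem_nhds (by
          have : |z.im| ≤ κ / 2 := hz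
          rw [mem_Str]; linarith))) (fun z hz => hM1 z hz)
        (x := ((φ + u).re : ℂ)) (y := φ + u) (by
          show |(((φ + u).re : ℝ) : ℂ).im| ≤ κ / 2
          rw [ofReal_im, abs_zero]; linarith) (by
          show |(φ + u).im| ≤ κ / 2
          linarith)
      refine h8.trans (le_trans (mul_le_mul_of_nonneg_left ?_ hM10) hδ3)
      have h9 : φ + u - ((φ + u).re : ℂ) = ((φ + u).im : ℂ) * I := by
        apply Complex.ext <;> simp
      rw [h9, norm_mul, norm_I, mul_one, norm_real]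
      exact h1
    have e1 : (deriv R (φ + u) * Complex.sin (u - y) + R (φ + u) * Complex.cos (u - y)).re =
        (deriv R (φ + u) * Complex.sin (u - y)).re + (R (φ + u) * (Complex.cos (u - y) - 1)).re +
        (R (φ + u) - R ((φ + u).re : ℂ)).re + (R ((φ + u).re : ℂ)).re := by
      simp only [add_re, sub_re, mul_re, sub_im, one_re, one_im]
      ring
    rw [e1]
    have g1 := (abs_le.1 (Complex.abs_re_le_norm (deriv R (φ + u) * Complex.sin (u - y)))).1
    have g2 := (abs_le.1 (Complex.abs_re_le_norm (R (φ + u) * (Complex.cos (u - y) - 1)))).1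
    have g3 := (abs_le.1 (Complex.abs_re_le_norm (R (φ + u) - R ((φ + u).re : ℂ)))).1
    have g4 := hlow (φ + u).re
    linarith
  -- monotonicity along the segment
  set d : ℂ := x₁ - x₂ with hd
  have hball : ∀ s ∈ Icc (0 : ℝ) 1, ∀ t ∈ Icc (0 : ℝ) 1, ‖(s : ℂ) * (x₂ + t * d)‖ < δ := by
    intro s hs t ht
    have h1 : x₂ + t * d = (1 - t : ℝ) • x₂ + t • x₁ := by
      simp only [Complex.real_smul, hd]
      push_cast; ring
    have h2 : ‖x₂ + t * d‖ < δ := by
      have := (convex_ball (0 : ℂ) δ) (by simpa using hx₂ : x₂ ∈ ball (0 : ℂ) δ)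
        (by simpa using hx₁ : x₁ ∈ ball (0 : ℂ) δ) (sub_nonneg.2 ht.2) ht.1
        (by ring : 1 - t + t = 1)
      rw [h1]
      simpa using this
    rw [norm_mul, norm_real, Real.norm_of_nonneg hs.1]
    calc s * ‖x₂ + t * d‖ ≤ 1 * ‖x₂ + t * d‖ := mul_le_mul_of_nonneg_right hs.2 (norm_nonneg _)
      _ < δ := by rw [one_mul]; exact h2
  have hmono : ∀ s ∈ Icc (0 : ℝ) 1, c₀ / 2 * (s * ‖d‖ ^ 2) ≤
      (conj d * (q (s * x₁) - q (s * x₂))).re := by
    intro s hs
    set g : ℝ → ℝ := fun t => (conj d * q (s * (x₂ + t * d))).re with hg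
    have hgd : ∀ t ∈ Icc (0 : ℝ) 1, HasDerivAt g ((conj d * ((deriv R (φ + s * (x₂ + t * d)) *
        Complex.sin (s * (x₂ + t * d) - y) + R (φ + s * (x₂ + t * d)) *
          Complex.cos (s * (x₂ + t * d) - y)) * (s * d))).re) t := by
      intro t ht
      have e0 : HasDerivAt (fun t : ℝ => (s : ℂ) * (x₂ + t * d)) (s * d) t := by
        have h1 : HasDerivAt (fun t : ℝ => (t : ℂ) * d) (1 * d) t :=
          (Complex.ofRealCLM.hasDerivAt (x := t)).mul_const d
        have h2 := (h1.const_add x₂).const_mul (s : ℂ)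
        simpa using h2
      have h1 := ((hqd _ (hball s hs t ht)).comp t e0).const_mul (conj d)
      have h2 := Complex.reCLM.hasFDerivAt.comp_hasDerivAt t h1
      exact h2
    have hlowd : ∀ t ∈ Icc (0 : ℝ) 1, c₀ / 2 * (s * ‖d‖ ^ 2) ≤ ((conj d * ((deriv R (φ +
        s * (x₂ + t * d)) * Complex.sin (s * (x₂ + t * d) - y) + R (φ + s * (x₂ + t * d)) *
          Complex.cos (s * (x₂ + t * d) - y)) * (s * d))).re) := by
      intro t ht
      have h1 := hre _ (hball s hs t ht)
      set A := (deriv R (φ + s * (x₂ + t * d)) * Complex.sin (s * (x₂ + t * d) - y) +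
        R (φ + s * (x₂ + t * d)) * Complex.cos (s * (x₂ + t * d) - y)) with hA
      have e1 : conj d * (A * (s * d)) = ((s * ‖d‖ ^ 2 : ℝ) : ℂ) * A := by
        have : conj d * d = ((‖d‖ ^ 2 : ℝ) : ℂ) := by
          rw [mul_comm, Complex.mul_conj, Complex.normSq_eq_norm_sq]
        push_cast at this ⊢
        linear_combination (A * s) * this
      rw [e1, Complex.re_ofReal_mul]
      have h2 : 0 ≤ s * ‖d‖ ^ 2 := mul_nonneg hs.1 (by positivity)
      nlinarith
    have h3 := (convex_Icc (0 : ℝ) 1).mul_sub_le_image_sub_of_le_deriv (f := g)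
      (C := c₀ / 2 * (s * ‖d‖ ^ 2))
      (fun t ht => (hgd t ht).continuousAt.continuousWithinAt)
      (fun t ht => (hgd t (interior_subset ht)).differentiableAt.differentiableWithinAt)
      (fun t ht => by
        rw [(hgd t (interior_subset ht)).deriv]
        exact hlowd t (interior_subset ht)) 0 (left_mem_Icc.2 zero_le_one) 1
      (right_mem_Icc.2 zero_le_one) zero_le_one
    have e2 : g 1 - g 0 = (conj d * (q (s * x₁) - q (s * x₂))).re := by
      simp only [hg, ofReal_one, one_mul, ofReal_zero, zero_mul, add_zero, hd, add_sub_cancel]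
      rw [mul_sub, sub_re]
    rw [← e2]
    linarith
  -- integrate
  have hqc : ∀ x : ℂ, ‖x‖ < δ → ContinuousOn (fun s : ℝ => q (s * x)) (Icc (0 : ℝ) 1) := by
    intro x hx s hs
    have h1 : ‖(s : ℂ) * x‖ < δ := by
      rw [norm_mul, norm_real, Real.norm_of_nonneg hs.1]
      calc s * ‖x‖ ≤ 1 * ‖x‖ := mul_le_mul_of_nonneg_right hs.2 (norm_nonneg _)
        _ < δ := by rw [one_mul]; exact hx
    have h2 : ContinuousAt (fun s : ℝ => (s : ℂ) * x) s := by fun_prop
    exact ((hqd _ h1).continuousAt.comp (f := fun s : ℝ => (s : ℂ) * x) h2).continuousWithinAt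
  have i1 : IntervalIntegrable (fun s : ℝ => q (s * x₁)) MeasureTheory.volume 0 1 := by
    refine ContinuousOn.intervalIntegrable ?_
    rw [uIcc_of_le zero_le_one]; exact hqc x₁ hx₁
  have i2 : IntervalIntegrable (fun s : ℝ => q (s * x₂)) MeasureTheory.volume 0 1 := by
    refine ContinuousOn.intervalIntegrable ?_
    rw [uIcc_of_le zero_le_one]; exact hqc x₂ hx₂
  have z1 : ∫ s in (0 : ℝ)..1, q (s * x₁) = 0 := hc1
  have z2 : ∫ s in (0 : ℝ)..1, q (s * x₂) = 0 := hc2
  have hI : ∫ s in (0 : ℝ)..1, (conj d * (q (s * x₁) - q (s * x₂))).re = 0 := by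
    have h1 : ∫ s in (0 : ℝ)..1, conj d * (q (s * x₁) - q (s * x₂)) = 0 := by
      rw [intervalIntegral.integral_const_mul, intervalIntegral.integral_sub i1 i2, z1, z2]
      ring
    have h2 := Complex.reCLM.intervalIntegral_comp_comm ((i1.sub i2).const_mul (conj d))
    simp only [Complex.reCLM_apply] at h2
    rw [h2, h1, zero_re]
  have hI2 : ∫ s in (0 : ℝ)..1, c₀ / 2 * (s * ‖d‖ ^ 2) = c₀ / 4 * ‖d‖ ^ 2 := by
    rw [intervalIntegral.integral_const_mul, intervalIntegral.integral_mul_const, integral_id]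
    ring
  have hle : c₀ / 4 * ‖d‖ ^ 2 ≤ 0 := by
    refine hI2.symm.le.trans (le_trans ?_ hI.le)
    refine intervalIntegral.integral_mono_on zero_le_one ?_ ?_ hmono
    · exact Continuous.intervalIntegrable (by fun_prop) _ _
    · have h1 := (i1.sub i2).const_mul (conj d)
      have h2 : IntervalIntegrable (fun s : ℝ => (conj d * (q (s * x₁) - q (s * x₂))).re)
          MeasureTheory.volume 0 1 := by
        refine ContinuousOn.intervalIntegrable ?_
        rw [uIcc_of_le zero_le_one]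
        exact Complex.continuous_re.comp_continuousOn
          (continuousOn_const.mul ((hqc x₁ hx₁).sub (hqc x₂ hx₂)))
      exact h2
  have hd0 : ‖d‖ ^ 2 = 0 := by
    have : 0 ≤ ‖d‖ ^ 2 := by positivity
    nlinarith
  have hd1 : d = 0 := norm_eq_zero.1 (pow_eq_zero_iff (two_ne_zero) |>.1 hd0)
  exact sub_eq_zero.1 hd1

end Vale.Agent.P097.H43
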