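import Vale.Agent.P097.H707.Tools

/-! # P097 / RAT-A: global inverse of a map of two complex variables with a lower Lipschitz bound -/

set_option linter.all false

open Filter Metric Set Topology

namespace Vale.Agent.P097.H43

open Vale.Agent.P097.TA

theorem global_inv {f g : ℂ → ℂ → ℂ} {U : Set (ℂ × ℂ)} (hU : IsOpen U) (hf : JD f U) (hg : JD g U)
    {c : ℝ} (hc : 0 < c)
    (hL : ∀ p ∈ U, ∀ q ∈ U, c * (‖p.1 - q.1‖ + ‖p.2 - q.2‖) ≤
      ‖f p.1 p.2 - f q.1 q.2‖ + ‖g p.1 p.2 - g q.1 q.2‖) :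
    ∃ (V : Set (ℂ × ℂ)) (τ ω : ℂ → ℂ → ℂ), IsOpen V ∧ JD τ V ∧ JD ω V ∧
      (∀ p ∈ V, (τ p.1 p.2, ω p.1 p.2) ∈ U ∧ f (τ p.1 p.2) (ω p.1 p.2) = p.1 ∧
        g (τ p.1 p.2) (ω p.1 p.2) = p.2) ∧
      (∀ q ∈ U, (f q.1 q.2, g q.1 q.2) ∈ V ∧ τ (f q.1 q.2) (g q.1 q.2) = q.1 ∧
        ω (f q.1 q.2) (g q.1 q.2) = q.2) := by
  classical
  set F : ℂ × ℂ → ℂ × ℂ := fun p => (f p.1 p.2, g p.1 p.2) with hF
  have hFd : DifferentiableOn ℂ F U := hf.prodMk hg
  -- lower Lipschitz bound in the sup norm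
  have hL2 : ∀ p ∈ U, ∀ q ∈ U, c * ‖p - q‖ ≤ 2 * ‖F p - F q‖ := by
    intro p hp q hq
    have h1 := hL p hp q hq
    have h2 : ‖p - q‖ ≤ ‖p.1 - q.1‖ + ‖p.2 - q.2‖ := by
      rw [Prod.norm_def]
      refine max_le ?_ ?_
      · have := norm_nonneg (p.2 - q.2)
        simp only [Prod.fst_sub]; linarith
      · have := norm_nonneg (p.1 - q.1)
        simp only [Prod.snd_sub]; linarith
    have h3 : ‖f p.1 p.2 - f q.1 q.2‖ ≤ ‖F p - F q‖ := norm_fst_le (F p - F q)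
    have h4 : ‖g p.1 p.2 - g q.1 q.2‖ ≤ ‖F p - F q‖ := norm_snd_le (F p - F q)
    have h5 := mul_le_mul_of_nonneg_left h2 hc.le
    linarith
  have hinj : InjOn F U := by
    intro p hp q hq hpq
    have h1 := hL2 p hp q hq
    rw [hpq, sub_self, norm_zero, mul_zero] at h1
    have h2 : ‖p - q‖ ≤ 0 := by
      by_contra h
      push Not at h
      nlinarith
    exact sub_eq_zero.1 (norm_le_zero_iff.1 h2)
  -- the derivative is an equivalence
  have hder : ∀ p ∈ U, ∃ e : (ℂ × ℂ) ≃L[ℂ] (ℂ × ℂ), HasStrictFDerivAt F (e : ℂ × ℂ →L[ℂ] ℂ × ℂ) p := by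
    intro p hp
    have han : AnalyticAt ℂ F p := Vale.Agent.P268.analyticAt_of_differentiableOn hU hFd hp
    have hst : HasStrictFDerivAt F (fderiv ℂ F p) p := han.hasStrictFDerivAt
    set D := fderiv ℂ F p with hD
    have hDinj : Function.Injective D := by
      rw [injective_iff_map_eq_zero]
      intro v hv
      by_contra hv0
      have hvn : 0 < ‖v‖ := norm_pos_iff.2 hv0
      have h1 := hst.hasFDerivAt.isLittleO.def (c := c / 4) (by positivity)
      have h2 : ∀ᶠ x in 𝓝 p, x ∈ U := hU.mem_nhds hp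
      have h3 : Tendsto (fun t : ℝ => p + (t : ℂ) • v) (𝓝 0) (𝓝 p) := by
        have : Continuous fun t : ℝ => p + (t : ℂ) • v := by fun_prop
        have h := this.tendsto 0
        simpa using h
      have h4 := (h3.eventually (h1.and h2))
      have h5 : ∀ᶠ t : ℝ in 𝓝[>] 0, 0 < t := eventually_mem_nhdsWithin
      obtain ⟨t, ⟨h6, h7⟩, h8⟩ := ((h4.filter_mono nhdsWithin_le_nhds).and h5).exists
      have h9 : p + (t : ℂ) • v - p = (t : ℂ) • v := by abel
      rw [h9, map_smul, hv, smul_zero, sub_zero] at h6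
      have h10 := hL2 _ h7 p hp
      rw [h9] at h10
      have h11 : ‖(t : ℂ) • v‖ = t * ‖v‖ := by
        rw [norm_smul, Complex.norm_real, Real.norm_of_nonneg h8.le]
      rw [h11] at h6 h10
      have h12 : 0 < t * ‖v‖ := by positivity
      nlinarith
    have hDbij : Function.Bijective (D : ℂ × ℂ →ₗ[ℂ] ℂ × ℂ) :=
      ⟨hDinj, (LinearMap.injective_iff_surjective (f := (D : ℂ × ℂ →ₗ[ℂ] ℂ × ℂ))).1 hDinj⟩
    refine ⟨(LinearEquiv.ofBijective (D : ℂ × ℂ →ₗ[ℂ] ℂ × ℂ) hDbij).toContinuousLinearEquiv, ?_⟩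
    convert hst using 1
    ext <;> rfl
  -- the inverse
  set G : ℂ × ℂ → ℂ × ℂ := Function.invFunOn F U with hG
  have hGF : ∀ q ∈ U, G (F q) = q := fun q hq => hinj.leftInvOn_invFunOn hq
  have hGU : ∀ y ∈ F '' U, G y ∈ U ∧ F (G y) = y := fun y hy =>
    ⟨Function.invFunOn_mem hy, Function.invFunOn_eq hy⟩
  have hVo : IsOpen (F '' U) := by
    rw [isOpen_iff_mem_nhds]
    rintro _ ⟨q, hq, rfl⟩
    obtain ⟨e, he⟩ := hder q hq
    rw [← he.map_nhds_eq_of_equiv]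
    exact image_mem_map (hU.mem_nhds hq)
  have hGc : ∀ y ∈ F '' U, ContinuousAt G y := by
    intro y hy
    rw [Metric.continuousAt_iff]
    intro ε hε
    obtain ⟨δ, hδ, hb⟩ := Metric.isOpen_iff.1 hVo y hy
    refine ⟨min δ (c * ε / 2), by positivity, fun z hz => ?_⟩
    have hz1 : z ∈ F '' U := hb (lt_of_lt_of_le hz (min_le_left _ _))
    have h1 := hL2 _ (hGU z hz1).1 _ (hGU y hy).1
    rw [(hGU z hz1).2, (hGU y hy).2] at h1
    have h2 : ‖z - y‖ < c * ε / 2 := by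
      rw [← dist_eq_norm]
      exact lt_of_lt_of_le hz (min_le_right _ _)
    rw [dist_eq_norm]
    by_contra h3
    push Not at h3
    nlinarith
  have hGd : DifferentiableOn ℂ G (F '' U) := by
    intro y hy
    obtain ⟨e, he⟩ := hder (G y) (hGU y hy).1
    have h1 : ∀ᶠ z in 𝓝 y, F (G z) = z := by
      filter_upwards [hVo.mem_nhds hy] with z hz
      exact (hGU z hz).2
    exact (he.hasFDerivAt.of_local_left_inverse (hGc y hy) h1).differentiableAt.differentiableWithinAt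
  refine ⟨F '' U, fun a b => (G (a, b)).1, fun a b => (G (a, b)).2, hVo, ?_, ?_, ?_, ?_⟩
  · exact hGd.fst
  · exact hGd.snd
  · intro p hp
    obtain ⟨h1, h2⟩ := hGU p hp
    exact ⟨h1, congrArg Prod.fst h2, congrArg Prod.snd h2⟩
  · intro q hq
    have h1 : G (f q.1 q.2, g q.1 q.2) = q := hGF q hq
    exact ⟨mem_image_of_mem F hq, congrArg Prod.fst h1, congrArg Prod.snd h1⟩

end Vale.Agent.P097.H43
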