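import Mathlib

/-! # P097 / RAT-A: Newton's formula `w ∂ₜ = log (1 + Δ)` for holomorphic functions -/

set_option linter.all false

open Complex Metric Filter Topology Set Finset

namespace Vale.Agent.P097.H43

/-- the truncated logarithm of the shift, in the form of `newt` -/
noncomputable def NW (m : ℕ) (G : ℕ → ℂ) : ℂ :=
  ∑ n ∈ Finset.Icc 1 m, (-1 : ℂ) ^ (n + 1) / n *
    ∑ k ∈ Finset.range (n + 1), (-1 : ℂ) ^ (n - k) * (n.choose k : ℂ) * G k

/-- the same with explicit coefficients -/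
noncomputable def NV (m : ℕ) (G : ℕ → ℂ) : ℂ :=
  ∑ k ∈ Finset.range m, (-1 : ℂ) ^ k * (m.choose (k + 1) : ℂ) / (k + 1 : ℕ) * (G (k + 1) - G 0)

theorem alt_sum (n : ℕ) (hn : n ≠ 0) :
    ∑ k ∈ Finset.range n, (-1 : ℂ) ^ k * (n.choose (k + 1) : ℂ) = 1 := by
  have h := Int.alternating_sum_range_choose_of_ne hn
  rw [Finset.sum_range_succ'] at h
  have h2 : ((∑ k ∈ Finset.range n, (-1 : ℤ) ^ (k + 1) * (n.choose (k + 1) : ℤ) +
    (-1) ^ 0 * (n.choose 0 : ℤ) : ℤ) : ℂ) = 0 := by rw [h]; simp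
  push_cast at h2
  simp only [pow_zero, Nat.choose_zero_right, Nat.cast_one, mul_one] at h2
  have h3 : ∑ k ∈ Finset.range n, (-1 : ℂ) ^ (k + 1) * (n.choose (k + 1) : ℂ) =
      -∑ k ∈ Finset.range n, (-1 : ℂ) ^ k * (n.choose (k + 1) : ℂ) := by
    rw [← Finset.sum_neg_distrib]
    refine Finset.sum_congr rfl fun k _ => ?_
    rw [pow_succ]; ring
  rw [h3] at h2
  linear_combination -h2

theorem NW_eq_NV (m : ℕ) (G : ℕ → ℂ) : NW m G = NV m G := by
  induction m with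
  | zero => simp [NW, NV]
  | succ m ih =>
    have e1 : NW (m + 1) G = NW m G + (-1 : ℂ) ^ (m + 1 + 1) / (m + 1 : ℕ) *
        ∑ k ∈ Finset.range (m + 1 + 1), (-1 : ℂ) ^ (m + 1 - k) * ((m + 1).choose k : ℂ) * G k := by
      unfold NW
      rw [Finset.sum_Icc_succ_top (by omega)]
    -- the last block
    have e2 : (-1 : ℂ) ^ (m + 1 + 1) *
        ∑ k ∈ Finset.range (m + 1 + 1), (-1 : ℂ) ^ (m + 1 - k) * ((m + 1).choose k : ℂ) * G k =
        ∑ k ∈ Finset.range (m + 1), (-1 : ℂ) ^ k * ((m + 1).choose (k + 1) : ℂ) *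
          (G (k + 1) - G 0) := by
      rw [Finset.mul_sum, Finset.sum_range_succ']
      have h1 : ∀ k ∈ Finset.range (m + 1), (-1 : ℂ) ^ (m + 1 + 1) *
          ((-1 : ℂ) ^ (m + 1 - (k + 1)) * ((m + 1).choose (k + 1) : ℂ) * G (k + 1)) =
          (-1 : ℂ) ^ k * ((m + 1).choose (k + 1) : ℂ) * G (k + 1) := by
        intro k hk
        have hk' : k ≤ m := by have := Finset.mem_range.1 hk; omega
        have : (-1 : ℂ) ^ (m + 1 + 1) * (-1 : ℂ) ^ (m + 1 - (k + 1)) = (-1 : ℂ) ^ k := by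
          rw [← pow_add]
          have : m + 1 + 1 + (m + 1 - (k + 1)) = k + 2 * (m + 1 - k) := by omega
          rw [this, pow_add, pow_mul]
          simp
        linear_combination ((m + 1).choose (k + 1) : ℂ) * G (k + 1) * this
      rw [Finset.sum_congr rfl h1]
      have h2 : ∑ k ∈ Finset.range (m + 1), (-1 : ℂ) ^ k * ((m + 1).choose (k + 1) : ℂ) *
          (G (k + 1) - G 0) = ∑ k ∈ Finset.range (m + 1), (-1 : ℂ) ^ k *
            ((m + 1).choose (k + 1) : ℂ) * G (k + 1) -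
          (∑ k ∈ Finset.range (m + 1), (-1 : ℂ) ^ k * ((m + 1).choose (k + 1) : ℂ)) * G 0 := by
        rw [Finset.sum_mul, ← Finset.sum_sub_distrib]
        refine Finset.sum_congr rfl fun k _ => by ring
      rw [h2, alt_sum (m + 1) (by omega)]
      have h3 : (-1 : ℂ) ^ (m + 1 + 1) * (-1 : ℂ) ^ (m + 1) = -1 := by
        rw [← pow_add]
        have : m + 1 + 1 + (m + 1) = 2 * (m + 1) + 1 := by ring
        rw [this, pow_succ, pow_mul]
        simp
      simp only [Nat.sub_zero, Nat.choose_zero_right, Nat.cast_one, mul_one]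
      linear_combination G 0 * h3
    have e3 : NV (m + 1) G = NV m G + (∑ k ∈ Finset.range (m + 1), (-1 : ℂ) ^ k *
        ((m + 1).choose (k + 1) : ℂ) * (G (k + 1) - G 0)) / (m + 1 : ℕ) := by
      have h0 : NV m G = ∑ k ∈ Finset.range (m + 1), (-1 : ℂ) ^ k * (m.choose (k + 1) : ℂ) /
          (k + 1 : ℕ) * (G (k + 1) - G 0) := by
        rw [Finset.sum_range_succ, Nat.choose_succ_self]
        simp [NV]
      rw [h0]
      unfold NV
      rw [Finset.sum_div, ← Finset.sum_add_distrib]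
      refine Finset.sum_congr rfl fun k _ => ?_
      have hk : ((k + 1 : ℕ) : ℂ) ≠ 0 := by exact_mod_cast Nat.succ_ne_zero k
      have hm : ((m + 1 : ℕ) : ℂ) ≠ 0 := by exact_mod_cast Nat.succ_ne_zero m
      have hc1 : ((m + 1).choose (k + 1) : ℂ) = (m.choose k : ℂ) + (m.choose (k + 1) : ℂ) := by
        rw [Nat.choose_succ_succ]; push_cast; ring
      have hc2 : ((m + 1 : ℕ) : ℂ) * (m.choose k : ℂ) =
          ((m + 1).choose (k + 1) : ℂ) * ((k + 1 : ℕ) : ℂ) := by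
        exact_mod_cast Nat.add_one_mul_choose_eq m k
      have hc3 : (m.choose k : ℂ) / ((k + 1 : ℕ) : ℂ) =
          ((m + 1).choose (k + 1) : ℂ) / ((m + 1 : ℕ) : ℂ) := by
        rw [div_eq_div_iff hk hm]
        linear_combination hc2
      have hc4 : ((m + 1).choose (k + 1) : ℂ) / ((k + 1 : ℕ) : ℂ) =
          (m.choose (k + 1) : ℂ) / ((k + 1 : ℕ) : ℂ) +
            ((m + 1).choose (k + 1) : ℂ) / ((m + 1 : ℕ) : ℂ) := by
        rw [← hc3, hc1]; ring
      linear_combination ((-1 : ℂ) ^ k * (G (k + 1) - G 0)) * hc4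
    rw [e1, e3, ih, ← e2]
    ring

/-- the moments of the coefficients -/
theorem moment (m j : ℕ) (hj : j + 1 ≤ m) :
    ∑ k ∈ Finset.range m, (-1 : ℂ) ^ k * (m.choose (k + 1) : ℂ) / (k + 1 : ℕ) *
      ((k + 1 : ℕ) : ℂ) ^ (j + 1) = if j = 0 then 1 else 0 := by
  have h1 : ∀ k ∈ Finset.range m, (-1 : ℂ) ^ k * (m.choose (k + 1) : ℂ) / (k + 1 : ℕ) *
      ((k + 1 : ℕ) : ℂ) ^ (j + 1) = (-1 : ℂ) ^ k * (m.choose (k + 1) : ℂ) *
        ((k + 1 : ℕ) : ℂ) ^ j := by
    intro k _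
    have hk : ((k + 1 : ℕ) : ℂ) ≠ 0 := by exact_mod_cast Nat.succ_ne_zero k
    rw [pow_succ]
    field_simp
  rw [Finset.sum_congr rfl h1]
  rcases Nat.eq_zero_or_pos j with rfl | hj0
  · simp only [pow_zero, mul_one, if_true]
    exact alt_sum m (by omega)
  · rw [if_neg (by omega)]
    have h2 : ((fwdDiff (1 : ℂ))^[m] (fun r : ℂ => r ^ j)) 0 = 0 := by
      rw [fwdDiff_iter_pow_eq_zero_of_lt (by omega : j < m)]; rfl
    rw [fwdDiff_iter_eq_sum_shift, Finset.sum_range_succ'] at h2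
    simp only [smul_eq_mul, zero_add, nsmul_eq_mul, mul_one, Nat.sub_zero, Nat.choose_zero_right,
      zero_mul, zsmul_eq_mul, Nat.cast_zero] at h2
    rw [zero_pow (by omega), mul_zero, add_zero] at h2
    have h3 : ∑ k ∈ Finset.range m, (-1 : ℂ) ^ k * (m.choose (k + 1) : ℂ) * ((k + 1 : ℕ) : ℂ) ^ j =
        (-1 : ℂ) ^ (m + 1) * ∑ k ∈ Finset.range m, ((((-1 : ℤ) ^ (m - (k + 1)) *
          (m.choose (k + 1) : ℤ) : ℤ) : ℂ) * (((k + 1 : ℕ) : ℂ) ^ j)) := by
      rw [Finset.mul_sum]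
      refine Finset.sum_congr rfl fun k hk => ?_
      have hk' : k + 1 ≤ m := by have := Finset.mem_range.1 hk; omega
      have : (-1 : ℂ) ^ (m + 1) * (-1 : ℂ) ^ (m - (k + 1)) = (-1 : ℂ) ^ k := by
        rw [← pow_add]
        have : m + 1 + (m - (k + 1)) = k + 2 * (m - k) := by omega
        rw [this, pow_add, pow_mul]
        simp
      push_cast
      linear_combination -((m.choose (k + 1) : ℂ) * ((k : ℂ) + 1) ^ j) * this
    rw [h3, h2, mul_zero]

/-- Newton's formula with remainder for one holomorphic function -/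
theorem newt_bound {u : ℂ → ℂ} {t : ℂ} {ρ M : ℝ} (hρ : 0 < ρ)
    (hu : DifferentiableOn ℂ u (ball t ρ)) (hM : ∀ z ∈ ball t ρ, ‖u z‖ ≤ M) (m : ℕ) (w : ℂ)
    (hw : 4 * ((m + 1 : ℕ) * ‖w‖) ≤ ρ) :
    ‖w * deriv u t - NW m (fun k => u (t + k * w))‖ ≤
      2 ^ (m + 2) * M * (2 * ((m + 1 : ℕ) * ‖w‖) / ρ) ^ (m + 1) := by
  rw [NW_eq_NV]
  have hM0 : 0 ≤ M := (norm_nonneg _).trans (hM t (mem_ball_self hρ))
  set α : ℕ → ℂ := fun k => (-1 : ℂ) ^ k * (m.choose (k + 1) : ℂ) / (k + 1 : ℕ) with hα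
  set c : ℕ → ℂ := fun j => (j.factorial : ℂ)⁻¹ * iteratedDeriv j u t with hc
  set x : ℝ := 2 * ((m + 1 : ℕ) * ‖w‖) / ρ with hx
  have hx0 : 0 ≤ x := by positivity
  have hx1 : x ≤ 1 / 2 := by
    rw [hx, div_le_iff₀ hρ]
    linarith
  have hcb : ∀ j, ‖c j‖ ≤ M / (ρ / 2) ^ j := by
    intro j
    have hd : DiffContOnCl ℂ u (ball t (ρ / 2)) := by
      refine DifferentiableOn.diffContOnCl_ball (c := t) (R := ρ / 2) (U := ball t ρ) hu ?_
      exact closedBall_subset_ball (by linarith)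
    have h1 := norm_iteratedDeriv_le_of_forall_mem_sphere_norm_le (c := t) (R := ρ / 2) (C := M)
      (f := u) j (by positivity) hd
      (fun z hz => hM z (closedBall_subset_ball (by linarith) (sphere_subset_closedBall hz)))
    have hf : (0 : ℝ) < j.factorial := by positivity
    rw [hc]
    simp only [norm_mul, norm_inv, Complex.norm_natCast]
    rw [inv_mul_le_iff₀ hf]
    calc _ ≤ _ := h1
      _ = _ := by ring
  have hser : ∀ k : ℕ, k ≤ m → HasSum (fun j => c j * w ^ j * (k : ℂ) ^ j) (u (t + k * w)) := by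
    intro k hk
    have hmem : t + k * w ∈ ball t ρ := by
      rw [mem_ball, dist_eq_norm, add_sub_cancel_left, norm_mul, Complex.norm_natCast]
      have h1 : (k : ℝ) * ‖w‖ ≤ (m + 1 : ℕ) * ‖w‖ := by
        refine mul_le_mul_of_nonneg_right ?_ (norm_nonneg _)
        exact_mod_cast (by omega : k ≤ m + 1)
      nlinarith [norm_nonneg w]
    have h1 := Complex.hasSum_taylorSeries_on_ball hu hmem
    have h2 : (fun j => c j * w ^ j * (k : ℂ) ^ j) = fun n : ℕ => (n.factorial : ℂ)⁻¹ •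
        (t + k * w - t) ^ n • iteratedDeriv n u t := by
      funext j
      simp only [add_sub_cancel_left, smul_eq_mul, mul_pow, hc]
      ring
    rw [h2]
    exact h1
  have hG : ∀ k ∈ Finset.range m, HasSum (fun j => c j * w ^ j * (α k * (((k + 1 : ℕ) : ℂ) ^ j -
      ((0 : ℕ) : ℂ) ^ j))) (α k * (u (t + (k + 1 : ℕ) * w) - u (t + (0 : ℕ) * w))) := by
    intro k hk
    have hk' := Finset.mem_range.1 hk
    have h1 := ((hser (k + 1) (by omega)).sub (hser 0 (by omega))).mul_left (α k)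
    have h2 : (fun j => c j * w ^ j * (α k * (((k + 1 : ℕ) : ℂ) ^ j - ((0 : ℕ) : ℂ) ^ j))) =
        fun j => α k * (c j * w ^ j * ((k + 1 : ℕ) : ℂ) ^ j - c j * w ^ j * ((0 : ℕ) : ℂ) ^ j) := by
      funext j
      ring
    rw [h2]
    exact h1
  have hV := hasSum_sum hG
  have hD : HasSum (fun j => c j * w ^ j * (if j = 1 then 1 else 0)) (w * deriv u t) := by
    have h1 : HasSum (fun j => c j * w ^ j * (if j = 1 then (1 : ℂ) else 0))
        (c 1 * w ^ 1 * (if (1 : ℕ) = 1 then (1 : ℂ) else 0)) :=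
      hasSum_single 1 fun j hj => by rw [if_neg hj, mul_zero]
    convert h1 using 1
    simp [hc]
    ring
  have hT := hD.sub hV
  set b : ℕ → ℂ := fun j => c j * w ^ j * (if j = 1 then 1 else 0) -
    ∑ k ∈ Finset.range m, c j * w ^ j * (α k * (((k + 1 : ℕ) : ℂ) ^ j - ((0 : ℕ) : ℂ) ^ j)) with hb
  have hb' : ∀ j, b j = c j * w ^ j * ((if j = 1 then 1 else 0) -
      ∑ k ∈ Finset.range m, α k * (((k + 1 : ℕ) : ℂ) ^ j - ((0 : ℕ) : ℂ) ^ j)) := by
    intro j
    simp only [hb]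
    rw [← Finset.mul_sum]
    ring
  have hb0 : ∀ j, j < m + 1 → b j = 0 := by
    intro j hj
    rw [hb']
    rcases Nat.eq_zero_or_pos j with rfl | hj0
    · simp
    · obtain ⟨i, rfl⟩ : ∃ i, j = i + 1 := ⟨j - 1, by omega⟩
      have h1 := moment m i (by omega)
      have h2 : ∑ k ∈ Finset.range m, α k * (((k + 1 : ℕ) : ℂ) ^ (i + 1) -
          ((0 : ℕ) : ℂ) ^ (i + 1)) = if i = 0 then 1 else 0 := by
        rw [← h1]
        refine Finset.sum_congr rfl fun k _ => ?_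
        simp [hα]
      rw [h2]
      simp
  have hbn : ∀ j, m + 1 ≤ j → ‖b j‖ ≤ 2 ^ (m + 1) * M * x ^ j := by
    intro j hj
    rw [hb', norm_mul, norm_mul, norm_pow]
    have h1 : ‖(if j = 1 then (1 : ℂ) else 0) - ∑ k ∈ Finset.range m, α k *
        (((k + 1 : ℕ) : ℂ) ^ j - ((0 : ℕ) : ℂ) ^ j)‖ ≤ 2 ^ (m + 1) * ((m + 1 : ℕ) : ℝ) ^ j := by
      have h2 : ‖(if j = 1 then (1 : ℂ) else 0)‖ ≤ 1 := by split_ifs <;> simp
      have h3 : ‖∑ k ∈ Finset.range m, α k * (((k + 1 : ℕ) : ℂ) ^ j - ((0 : ℕ) : ℂ) ^ j)‖ ≤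
          ∑ k ∈ Finset.range m, (m.choose (k + 1) : ℝ) * ((m + 1 : ℕ) : ℝ) ^ j := by
        refine (norm_sum_le _ _).trans (Finset.sum_le_sum fun k hk => ?_)
        have hk' := Finset.mem_range.1 hk
        have hj0 : j ≠ 0 := by omega
        rw [Nat.cast_zero, zero_pow hj0, sub_zero, norm_mul, norm_pow, Complex.norm_natCast]
        have h4 : ‖α k‖ ≤ m.choose (k + 1) := by
          rw [hα]
          simp only [norm_div, norm_mul, norm_pow, norm_neg, norm_one, one_pow, one_mul,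
            Complex.norm_natCast]
          refine div_le_self (by positivity) ?_
          exact_mod_cast Nat.succ_le_succ (Nat.zero_le k)
        have h5 : ((k + 1 : ℕ) : ℝ) ^ j ≤ ((m + 1 : ℕ) : ℝ) ^ j := by
          refine pow_le_pow_left₀ (by positivity) ?_ _
          exact_mod_cast (by omega : k + 1 ≤ m + 1)
        exact mul_le_mul h4 h5 (by positivity) (by positivity)
      have h6 : ∑ k ∈ Finset.range m, (m.choose (k + 1) : ℝ) ≤ 2 ^ m := by
        have h7 := Nat.sum_range_choose m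
        rw [Finset.sum_range_succ'] at h7
        have h8 : ∑ k ∈ Finset.range m, m.choose (k + 1) ≤ 2 ^ m := by omega
        exact_mod_cast h8
      have h9 : (1 : ℝ) ≤ ((m + 1 : ℕ) : ℝ) ^ j := one_le_pow₀ (by
        exact_mod_cast Nat.succ_le_succ (Nat.zero_le m))
      have h10 : (1 : ℝ) ≤ 2 ^ m := one_le_pow₀ (by norm_num)
      calc _ ≤ _ := norm_sub_le _ _
        _ ≤ 1 + ∑ k ∈ Finset.range m, (m.choose (k + 1) : ℝ) * ((m + 1 : ℕ) : ℝ) ^ j :=
          add_le_add h2 h3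
        _ = 1 + (∑ k ∈ Finset.range m, (m.choose (k + 1) : ℝ)) * ((m + 1 : ℕ) : ℝ) ^ j := by
          rw [Finset.sum_mul]
        _ ≤ 2 ^ m * ((m + 1 : ℕ) : ℝ) ^ j + 2 ^ m * ((m + 1 : ℕ) : ℝ) ^ j := by
          refine add_le_add ?_ (mul_le_mul_of_nonneg_right h6 (by positivity))
          nlinarith
        _ = _ := by ring
    calc ‖c j‖ * ‖w‖ ^ j * _ ≤ M / (ρ / 2) ^ j * ‖w‖ ^ j * (2 ^ (m + 1) *
        ((m + 1 : ℕ) : ℝ) ^ j) := by
          refine mul_le_mul (mul_le_mul_of_nonneg_right (hcb j) (by positivity)) h1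
            (norm_nonneg _) (by positivity)
      _ = 2 ^ (m + 1) * M * x ^ j := by
        rw [hx]
        simp only [div_pow, mul_pow]
        field_simp
  have hS : HasSum (fun i => b (i + (m + 1))) (w * deriv u t - NV m (fun k => u (t + k * w))) := by
    have h1 := (hasSum_nat_add_iff' (m + 1)).2 hT
    have h2 : ∑ i ∈ Finset.range (m + 1), b i = 0 :=
      Finset.sum_eq_zero fun i hi => hb0 i (Finset.mem_range.1 hi)
    rw [h2, sub_zero] at h1
    exact h1
  rw [← hS.tsum_eq]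
  have hg : HasSum (fun i : ℕ => 2 ^ (m + 1) * M * x ^ (m + 1) * (1 / 2 : ℝ) ^ i)
      (2 ^ (m + 1) * M * x ^ (m + 1) * 2) := by
    have := (hasSum_geometric_of_lt_one (r := (1 / 2 : ℝ)) (by norm_num) (by norm_num)).mul_left
      (2 ^ (m + 1) * M * x ^ (m + 1))
    have h2 : (1 - (1 / 2 : ℝ))⁻¹ = 2 := by norm_num
    rwa [h2] at this
  refine (tsum_of_norm_bounded hg fun i => ?_).trans_eq (by ring)
  refine (hbn (i + (m + 1)) (by omega)).trans ?_
  have h3 : x ^ (i + (m + 1)) = x ^ (m + 1) * x ^ i := by rw [pow_add, mul_comm]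
  rw [h3, ← mul_assoc]
  exact mul_le_mul_of_nonneg_left (pow_le_pow_left₀ hx0 hx1 i) (by positivity)

end Vale.Agent.P097.H43
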